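import Mathlib.Algebra.CharP.Two
import Mathlib.Algebra.Field.Basic
import Mathlib.Algebra.BigOperators.Ring.Finset
import Mathlib.Algebra.Order.BigOperators.Group.Finset
import Mathlib.Data.Fintype.BigOperators
import Mathlib.Data.Finset.NAry
import Mathlib.Tactic

/-! Artin-Schreier image in a finite field of characteristic two, and a small binary code. -/

namespace Vale.Agent.P045

open Finset

set_option linter.unusedSectionVars false

variable {F : Type} [Field F] [Fintype F] [DecidableEq F] [CharP F 2]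

/-- the image of `x ↦ x ^ 2 + x` -/
def asIm (F : Type) [Field F] [Fintype F] [DecidableEq F] : Finset F :=
  univ.image fun x => x ^ 2 + x

theorem mem_asIm {y : F} : y ∈ asIm F ↔ ∃ x : F, x ^ 2 + x = y := by simp [asIm]

theorem two_zero : (2 : F) = 0 := CharTwo.two_eq_zero

theorem card_as_fiber (y : F) :
    (univ.filter fun x : F => x ^ 2 + x = y).card = if y ∈ asIm F then 2 else 0 := by
  have h2 : (2 : F) = 0 := two_zero
  split_ifs with h
  · obtain ⟨x, hx⟩ := mem_asIm.mp h
    have : (univ.filter fun x : F => x ^ 2 + x = y) = {x, x + 1} := by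
      ext t
      simp only [mem_filter, mem_univ, true_and, mem_insert, mem_singleton]
      constructor
      · intro ht
        have : (t - x) * (t - (x + 1)) = 0 := by
          linear_combination ht - hx + (x ^ 2 + x - t * x - t) * h2
        rcases mul_eq_zero.mp this with h0 | h0
        · exact Or.inl (sub_eq_zero.mp h0)
        · exact Or.inr (sub_eq_zero.mp h0)
      · rintro (rfl | rfl)
        · exact hx
        · linear_combination hx + (x + 1) * h2
    rw [this, card_pair (by simp)]
  · rw [card_eq_zero, filter_eq_empty_iff]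
    intro x _ hx
    exact h (mem_asIm.mpr ⟨x, hx⟩)

theorem two_mul_card_asIm : 2 * (asIm F).card = Fintype.card F := by
  rw [← card_univ, card_eq_sum_card_fiberwise (f := fun x : F => x ^ 2 + x) (s := univ)
    (t := asIm F) (fun x _ => mem_coe.mpr (mem_asIm.mpr ⟨x, rfl⟩))]
  rw [sum_congr rfl (g := fun _ => 2) fun y hy => by rw [card_as_fiber, if_pos hy]]
  simp [mul_comm]

theorem add_mem_asIm {y y' : F} (h : y ∈ asIm F) (h' : y' ∈ asIm F) : y + y' ∈ asIm F := by
  have h2 : (2 : F) = 0 := two_zero
  obtain ⟨x, rfl⟩ := mem_asIm.mp h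
  obtain ⟨x', rfl⟩ := mem_asIm.mp h'
  exact mem_asIm.mpr ⟨x + x', by linear_combination (x * x') * h2⟩

theorem add_notMem_asIm {y y' : F} (h : y ∈ asIm F) (h' : y' ∉ asIm F) : y + y' ∉ asIm F := by
  intro h1
  apply h'
  have := add_mem_asIm h h1
  rwa [← add_assoc, CharTwo.add_self_eq_zero, zero_add] at this

theorem add_mem_asIm_of_not {y y' : F} (h : y ∉ asIm F) (h' : y' ∉ asIm F) :
    y + y' ∈ asIm F := by
  have hsub : (asIm F).image (fun t => t + y) ⊆ (asIm F)ᶜ := by
    intro t ht
    obtain ⟨s, hs, rfl⟩ := mem_image.mp ht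
    exact mem_compl.mpr (add_notMem_asIm hs h)
  have hcard : ((asIm F)ᶜ).card ≤ ((asIm F).image (fun t => t + y)).card := by
    rw [card_image_of_injective _ (add_left_injective y), card_compl]
    have := two_mul_card_asIm (F := F)
    omega
  have heq := eq_of_subset_of_card_le hsub hcard
  have : y' ∈ (asIm F).image (fun t => t + y) := heq ▸ mem_compl.mpr h'
  obtain ⟨s, hs, rfl⟩ := mem_image.mp this
  rwa [add_comm, add_assoc, CharTwo.add_self_eq_zero, add_zero]

theorem half_of_not (T : Finset F) (hT : ∀ a ∈ T, ∀ b ∈ T, a + b ∈ T) (w : F)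
    (hw : ¬ ∀ D ∈ T, D * w ∈ asIm F) :
    2 * (T.filter fun D => D * w ∈ asIm F).card = T.card := by
  push Not at hw
  obtain ⟨D0, hD0, hD0'⟩ := hw
  have h1 := card_filter_add_card_filter_not (s := T) (fun D => D * w ∈ asIm F)
  have h2 : (T.filter fun D => D * w ∈ asIm F).card =
      (T.filter fun D => ¬ D * w ∈ asIm F).card := by
    refine card_nbij' (fun D => D + D0) (fun D => D + D0) ?_ ?_ ?_ ?_
    · intro D hD
      obtain ⟨hD1, hD2⟩ := mem_filter.mp (mem_coe.mp hD)
      refine mem_coe.mpr (mem_filter.mpr ⟨hT _ hD1 _ hD0, ?_⟩)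
      rw [add_mul]
      exact add_notMem_asIm hD2 hD0'
    · intro D hD
      obtain ⟨hD1, hD2⟩ := mem_filter.mp (mem_coe.mp hD)
      refine mem_coe.mpr (mem_filter.mpr ⟨hT _ hD1 _ hD0, ?_⟩)
      rw [add_mul]
      exact add_mem_asIm_of_not hD2 hD0'
    · intro D _
      simp only [add_assoc, CharTwo.add_self_eq_zero, add_zero]
    · intro D _
      simp only [add_assoc, CharTwo.add_self_eq_zero, add_zero]
  omega

theorem card_perp (T : Finset F) (h0 : (0 : F) ∈ T) (hT : ∀ a ∈ T, ∀ b ∈ T, a + b ∈ T) :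
    (univ.filter fun w : F => ∀ D ∈ T, D * w ∈ asIm F).card * T.card = Fintype.card F := by
  set q := Fintype.card F with hq
  have hdc : ∑ w : F, (T.filter fun D => D * w ∈ asIm F).card =
      ∑ D ∈ T, (univ.filter fun w : F => D * w ∈ asIm F).card := by
    simp only [card_filter]
    exact sum_comm
  have hR : 2 * ∑ D ∈ T, (univ.filter fun w : F => D * w ∈ asIm F).card = q + T.card * q := by
    rw [mul_sum, ← add_sum_erase T _ h0]
    have e0 : (univ.filter fun w : F => 0 * w ∈ asIm F).card = q := by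
      rw [filter_true_of_mem, card_univ]
      intro w _
      exact mem_asIm.mpr ⟨0, by simp⟩
    have e1 : ∀ D ∈ T.erase 0, 2 * (univ.filter fun w : F => D * w ∈ asIm F).card = q := by
      intro D hD
      have hD0 : D ≠ 0 := (mem_erase.mp hD).1
      rw [hq, ← two_mul_card_asIm]
      congr 1
      refine card_nbij' (fun w => D * w) (fun y => D⁻¹ * y) ?_ ?_ ?_ ?_
      · intro w hw
        exact mem_coe.mpr (mem_filter.mp (mem_coe.mp hw)).2
      · intro y hy
        refine mem_coe.mpr (mem_filter.mpr ⟨mem_univ _, ?_⟩)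
        rw [mul_inv_cancel_left₀ hD0]
        exact mem_coe.mp hy
      · intro w _
        exact inv_mul_cancel_left₀ hD0 w
      · intro y _
        exact mul_inv_cancel_left₀ hD0 y
    rw [sum_congr rfl e1, e0, sum_const, card_erase_of_mem h0, smul_eq_mul]
    obtain ⟨n, hn⟩ : ∃ n, T.card = n + 1 := ⟨T.card - 1, by
      have := card_pos.mpr ⟨0, h0⟩; omega⟩
    rw [hn, Nat.add_sub_cancel]
    ring
  have hL : 2 * ∑ w : F, (T.filter fun D => D * w ∈ asIm F).card =
      (univ.filter fun w : F => ∀ D ∈ T, D * w ∈ asIm F).card * T.card + q * T.card := by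
    rw [mul_sum, card_filter (fun w : F => ∀ D ∈ T, D * w ∈ asIm F), sum_mul, hq, ← card_univ,
      ← smul_eq_mul, ← sum_const, ← sum_add_distrib]
    refine sum_congr rfl fun w _ => ?_
    split_ifs with h
    · rw [filter_true_of_mem h]; ring
    · rw [half_of_not T hT w h]; ring
  rw [hdc, hR, mul_comm q] at hL
  omega

theorem exists_sub (B : Finset F) (m : ℕ) (hm : 2 ^ m * (B.card + 1) ≤ Fintype.card F) :
    ∃ T : Finset F, (0 : F) ∈ T ∧ (∀ a ∈ T, ∀ b ∈ T, a + b ∈ T) ∧ T.card = 2 ^ m ∧
      ∀ t ∈ T, t ∈ B → t = 0 := by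
  induction m with
  | zero => exact ⟨{0}, by simp, by simp, by simp, by simp⟩
  | succ m ih =>
    have hpos : 0 < 2 ^ m * (B.card + 1) := by positivity
    obtain ⟨T, h0, hT, hc, hB⟩ := ih (by rw [pow_succ] at hm; nlinarith)
    have hlt : (image₂ (· + ·) T (insert 0 B)).card < (univ : Finset F).card := by
      refine (card_image₂_le _ _ _).trans_lt ?_
      have := card_insert_le (0 : F) B
      rw [card_univ, hc]
      rw [pow_succ] at hm
      have := Nat.mul_le_mul_left (2 ^ m) this
      nlinarith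
    obtain ⟨g, -, hg⟩ := exists_mem_notMem_of_card_lt_card hlt
    have hg' : ∀ t ∈ T, ∀ b ∈ insert 0 B, t + g ≠ b := by
      intro t ht b hb e
      apply hg
      refine mem_image₂.mpr ⟨t, ht, b, hb, ?_⟩
      rw [← e, ← add_assoc, CharTwo.add_self_eq_zero, zero_add]
    have h2 : (2 : F) = 0 := two_zero
    refine ⟨T ∪ T.image (· + g), mem_union_left _ h0, ?_, ?_, ?_⟩
    · intro a ha b hb
      rcases mem_union.mp ha with ha | ha <;> rcases mem_union.mp hb with hb | hb
      · exact mem_union_left _ (hT _ ha _ hb)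
      · obtain ⟨b', hb', rfl⟩ := mem_image.mp hb
        exact mem_union_right _ (mem_image.mpr ⟨a + b', hT _ ha _ hb', by ring⟩)
      · obtain ⟨a', ha', rfl⟩ := mem_image.mp ha
        exact mem_union_right _ (mem_image.mpr ⟨a' + b, hT _ ha' _ hb, by ring⟩)
      · obtain ⟨a', ha', rfl⟩ := mem_image.mp ha
        obtain ⟨b', hb', rfl⟩ := mem_image.mp hb
        have : a' + g + (b' + g) = a' + b' := by linear_combination g * h2
        rw [this]
        exact mem_union_left _ (hT _ ha' _ hb')
    · rw [card_union_of_disjoint, card_image_of_injective _ (add_left_injective g), hc]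
      · ring
      · rw [disjoint_left]
        intro a ha ha'
        obtain ⟨b, hb, rfl⟩ := mem_image.mp ha'
        refine hg' _ (hT _ hb _ ha) 0 (mem_insert_self _ _) ?_
        linear_combination (b + g) * h2
    · intro t ht htB
      rcases mem_union.mp ht with ht | ht
      · exact hB t ht htB
      · obtain ⟨b, hb, rfl⟩ := mem_image.mp ht
        exact absurd rfl (hg' b hb _ (mem_insert_of_mem htB))

theorem count_erase (T : Finset F) (h0 : (0 : F) ∈ T) (w : F) :
    ((T.erase 0).filter fun D => D * w ∈ asIm F).card + 1 =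
      (T.filter fun D => D * w ∈ asIm F).card := by
  rw [filter_erase, card_erase_add_one]
  exact mem_filter.mpr ⟨h0, mem_asIm.mpr ⟨0, by simp⟩⟩

theorem exists_code (hq : 800 ≤ Fintype.card F) :
    ∃ S Z : Finset F, (0 : F) ∉ S ∧ (0 : F) ∈ Z ∧ S.card = 53 ∧
      32 * Z.card ≤ 7 * Fintype.card F ∧
      (∀ w, 25 ≤ (S.filter fun D => D * w ∈ asIm F).card) ∧
      ∀ w ∉ Z, (S.filter fun D => D * w ∈ asIm F).card = 25 := by
  obtain ⟨T1, h01, hT1, hc1, -⟩ := exists_sub (F := F) ∅ 3 (by simp; omega)
  obtain ⟨T2, h02, hT2, hc2, hB2⟩ := exists_sub T1 4 (by rw [hc1]; omega)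
  obtain ⟨T3, h03, hT3, hc3, hB3⟩ := exists_sub (T1 ∪ T2) 5 (by
    have := card_union_le T1 T2
    omega)
  have d12 : Disjoint (T1.erase 0) (T2.erase 0) := by
    rw [disjoint_left]
    intro a ha ha'
    exact (mem_erase.mp ha).1 (hB2 a (mem_erase.mp ha').2 (mem_erase.mp ha).2)
  have d3 : Disjoint (T1.erase 0 ∪ T2.erase 0) (T3.erase 0) := by
    rw [disjoint_left]
    intro a ha ha'
    refine (mem_erase.mp ha').1 (hB3 a (mem_erase.mp ha').2 ?_)
    rcases mem_union.mp ha with ha | ha
    · exact mem_union_left _ (mem_erase.mp ha).2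
    · exact mem_union_right _ (mem_erase.mp ha).2
  let V : Finset F → Finset F := fun T => univ.filter fun w : F => ∀ D ∈ T, D * w ∈ asIm F
  have hsplit : ∀ w, ((T1.erase 0 ∪ T2.erase 0 ∪ T3.erase 0).filter
      fun D => D * w ∈ asIm F).card + 3 = (T1.filter fun D => D * w ∈ asIm F).card +
        (T2.filter fun D => D * w ∈ asIm F).card + (T3.filter fun D => D * w ∈ asIm F).card := by
    intro w
    rw [filter_union, card_union_of_disjoint (disjoint_filter_filter d3), filter_union,
      card_union_of_disjoint (disjoint_filter_filter d12), ← count_erase T1 h01,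
      ← count_erase T2 h02, ← count_erase T3 h03]
    ring
  have hge : ∀ T : Finset F, (∀ a ∈ T, ∀ b ∈ T, a + b ∈ T) → ∀ w,
      T.card ≤ 2 * (T.filter fun D => D * w ∈ asIm F).card := by
    intro T hT w
    by_cases h : ∀ D ∈ T, D * w ∈ asIm F
    · rw [filter_true_of_mem h]; omega
    · exact (half_of_not T hT w h).ge
  refine ⟨T1.erase 0 ∪ T2.erase 0 ∪ T3.erase 0, V T1 ∪ V T2 ∪ V T3, by simp, ?_, ?_, ?_, ?_, ?_⟩
  · refine mem_union_right _ (mem_filter.mpr ⟨mem_univ _, fun D _ => mem_asIm.mpr ⟨0, by simp⟩⟩)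
  · rw [card_union_of_disjoint d3, card_union_of_disjoint d12, card_erase_of_mem h01,
      card_erase_of_mem h02, card_erase_of_mem h03, hc1, hc2, hc3]
    norm_num
  · have e1 := card_perp T1 h01 hT1
    have e2 := card_perp T2 h02 hT2
    have e3 := card_perp T3 h03 hT3
    rw [hc1] at e1
    rw [hc2] at e2
    rw [hc3] at e3
    have i1 := card_union_le (V T1 ∪ V T2) (V T3)
    have i2 := card_union_le (V T1) (V T2)
    simp only [V] at i1 i2 ⊢
    omega
  · intro w
    have := hsplit w
    have := hge T1 hT1 w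
    have := hge T2 hT2 w
    have := hge T3 hT3 w
    omega
  · intro w hw
    simp only [V, mem_union, mem_filter, mem_univ, true_and, not_or] at hw
    have := hsplit w
    have := half_of_not T1 hT1 w hw.1.1
    have := half_of_not T2 hT2 w hw.1.2
    have := half_of_not T3 hT3 w hw.2
    omega

end Vale.Agent.P045
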