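import Vale.Agent.P045.Poly
import Vale.Agent.P045.Code

/-! The broken lines and their incidence counts. -/

namespace Vale.Agent.P045

open Finset

set_option linter.unusedSectionVars false

variable {F : Type} [Field F] [Fintype F] [DecidableEq F] [CharP F 2]

/-- the predicate of being a broken line -/
def IsBrk (S : Finset F) : Option F × F → Prop
  | (none, c) => c ≠ 0
  | (some m, k) => (k = 0 ∧ m ≠ 0) ∨ (k ≠ 0 ∧ (m = 0 ∨ m / k ^ 2 ∈ S))

open Classical in
/-- the broken lines -/
noncomputable def brk (S : Finset F) : Finset (Option F × F) := univ.filter (IsBrk S)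

theorem mem_brk_none {S : Finset F} {c : F} : (none, c) ∈ brk S ↔ c ≠ 0 := by
  simp [brk, IsBrk]

theorem mem_brk_some {S : Finset F} {m k : F} :
    (some m, k) ∈ brk S ↔ (k = 0 ∧ m ≠ 0) ∨ (k ≠ 0 ∧ (m = 0 ∨ m / k ^ 2 ∈ S)) := by
  simp [brk, IsBrk]

theorem card_brk_torus (S : Finset F) (hS : (0 : F) ∉ S) (u v : F) (hu : u ≠ 0) (hv : v ≠ 0) :
    (univ.filter fun d => (d, icpt (u, v) d) ∈ brk S).card =
      3 + 2 * (S.filter fun D => D * (u * v) ∈ asIm F).card := by
  let M : Finset F := univ.filter fun m => v - m * u ≠ 0 ∧ m / (v - m * u) ^ 2 ∈ S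
  have hM : ∀ m, m ∈ M ↔ v - m * u ≠ 0 ∧ m / (v - m * u) ^ 2 ∈ S := by simp [M]
  have hset : (univ.filter fun d => (d, icpt (u, v) d) ∈ brk S) =
      insert none ((insert 0 (insert (v / u) M)).image some) := by
    ext d
    rw [mem_filter]
    cases d with
    | none =>
      have : (none, icpt (u, v) none) ∈ brk S := mem_brk_none.mpr hu
      simp [this]
    | some m =>
      have e : icpt (u, v) (some m) = v - m * u := rfl
      rw [e, mem_brk_some]
      simp only [mem_univ, true_and, mem_insert, reduceCtorEq, mem_image, Option.some.injEq,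
        exists_eq_right, false_or, hM]
      constructor
      · rintro (⟨h1, -⟩ | ⟨h1, h2 | h2⟩)
        · right; left
          field_simp
          linear_combination -h1
        · left; exact h2
        · right; right; exact ⟨h1, h2⟩
      · rintro (h | h | ⟨h1, h2⟩)
        · right
          subst h
          exact ⟨by simpa using hv, Or.inl rfl⟩
        · left
          subst h
          exact ⟨by field_simp; ring, div_ne_zero hv hu⟩
        · right; exact ⟨h1, Or.inr h2⟩
  have h1 : v / u ∉ M := by
    rw [hM]
    intro h
    apply h.1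
    field_simp
    ring
  have h2 : (0 : F) ∉ insert (v / u) M := by
    rw [mem_insert, hM]
    rintro (h | h)
    · exact div_ne_zero hv hu h.symm
    · apply hS
      simpa using h.2
  have hMc : M.card = 2 * (S.filter fun D => D * (u * v) ∈ asIm F).card := by
    rw [card_eq_sum_card_fiberwise (f := fun m => m / (v - m * u) ^ 2) (s := M) (t := S)
      (fun m hm => mem_coe.mpr ((hM m).mp (mem_coe.mp hm)).2), card_filter, mul_sum]
    refine sum_congr rfl fun D hD => ?_
    have hD0 : D ≠ 0 := fun e => hS (e ▸ hD)
    have : (M.filter fun m => m / (v - m * u) ^ 2 = D).card =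
        (univ.filter fun x : F => x ^ 2 + x = D * (u * v)).card := by
      refine card_nbij' (fun m => D * u * (v - m * u)) (fun x => D * (x / (D * u)) ^ 2) ?_ ?_ ?_ ?_
      · intro m hm
        obtain ⟨hm1, hm2⟩ := mem_filter.mp (mem_coe.mp hm)
        have hk := ((hM m).mp hm1).1
        refine mem_coe.mpr (mem_filter.mpr ⟨mem_univ _, ?_⟩)
        have : m = D * (v - m * u) ^ 2 := by
          rw [← hm2]; field_simp
        linear_combination (-(D * u * u)) * this
      · intro x hx
        have hx' := (mem_filter.mp (mem_coe.mp hx)).2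
        have hx0 : x ≠ 0 := by
          rintro rfl
          have : D * (u * v) ≠ 0 := by positivity
          exact this (by rw [← hx']; ring)
        have hk : v - D * (x / (D * u)) ^ 2 * u = x / (D * u) := by
          field_simp
          linear_combination -hx'
        have hq : D * (x / (D * u)) ^ 2 / (v - D * (x / (D * u)) ^ 2 * u) ^ 2 = D := by
          rw [hk]; field_simp
        refine mem_coe.mpr (mem_filter.mpr ⟨(hM _).mpr ⟨?_, ?_⟩, hq⟩)
        · rw [hk]; positivity
        · rw [hq]; exact hD
      · intro m hm
        obtain ⟨hm1, hm2⟩ := mem_filter.mp (mem_coe.mp hm)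
        have hk := ((hM m).mp hm1).1
        simp only
        rw [mul_div_cancel_left₀ _ (mul_ne_zero hD0 hu), ← hm2]
        field_simp
      · intro x hx
        have hx' := (mem_filter.mp (mem_coe.mp hx)).2
        have hk : v - D * (x / (D * u)) ^ 2 * u = x / (D * u) := by
          field_simp
          linear_combination -hx'
        simp only
        rw [hk]
        field_simp
    rw [this, card_as_fiber]
    split_ifs <;> rfl
  rw [hset, card_insert_of_notMem (by simp), card_image_of_injective _ (Option.some_injective F),
    card_insert_of_notMem h2, card_insert_of_notMem h1, hMc]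
  ring

theorem card_brk_nontorus (S : Finset F) (hS : (0 : F) ∉ S) (hq : S.card + 2 ≤ Fintype.card F)
    (u v : F) (huv : u * v = 0) :
    S.card + 1 ≤ (univ.filter fun d => (d, icpt (u, v) d) ∈ brk S).card := by
  by_cases hu : u = 0
  · subst hu
    by_cases hv : v = 0
    · subst hv
      have : S.card + 1 ≤ (univ.erase (0 : F)).card := by
        rw [card_erase_of_mem (mem_univ _), card_univ]; omega
      refine this.trans (card_le_card_of_injOn some ?_ (Option.some_injective F).injOn)
      intro m hm
      refine mem_coe.mpr (mem_filter.mpr ⟨mem_univ _, mem_brk_some.mpr (Or.inl ⟨by simp [icpt], ?_⟩)⟩)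
      exact (mem_erase.mp (mem_coe.mp hm)).1
    · rw [← card_insert_of_notMem hS]
      refine card_le_card_of_injOn (fun D => some (D * v ^ 2)) ?_ ?_
      · intro D hD
        refine mem_coe.mpr (mem_filter.mpr ⟨mem_univ _, mem_brk_some.mpr (Or.inr ⟨by
          simpa [icpt] using hv, ?_⟩)⟩)
        rcases mem_insert.mp (mem_coe.mp hD) with h | h
        · left; rw [h, zero_mul]
        · right
          simp only [icpt, mul_zero, sub_zero]
          rwa [mul_div_cancel_right₀ _ (pow_ne_zero 2 hv)]
      · intro D _ D' _ e
        exact mul_right_cancel₀ (pow_ne_zero 2 hv) (Option.some_injective F e)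
  · have hv : v = 0 := (mul_eq_zero.mp huv).resolve_left hu
    subst hv
    have hc : (insert none (S.image fun D => some (1 / (D * u ^ 2)))).card = S.card + 1 := by
      rw [card_insert_of_notMem (by simp), card_image_of_injective]
      intro D D' e
      have := Option.some_injective F e
      rw [one_div, one_div, inv_inj] at this
      exact mul_right_cancel₀ (pow_ne_zero 2 hu) this
    rw [← hc]
    refine card_le_card fun d hd => mem_filter.mpr ⟨mem_univ _, ?_⟩
    rcases mem_insert.mp hd with rfl | hd
    · exact mem_brk_none.mpr hu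
    · obtain ⟨D, hD, rfl⟩ := mem_image.mp hd
      have hD0 : D ≠ 0 := fun e => hS (e ▸ hD)
      refine mem_brk_some.mpr (Or.inr ⟨?_, Or.inr ?_⟩)
      · simp [icpt, hD0, hu]
      · have : 1 / (D * u ^ 2) / (0 - 1 / (D * u ^ 2) * u) ^ 2 = D := by
          field_simp
          ring
        simp only [icpt]
        rw [this]
        exact hD

theorem card_brk_dir (S : Finset F) (hS : (0 : F) ∉ S) (hq : S.card + 2 ≤ Fintype.card F)
    (d : Option F) : S.card + 1 ≤ (univ.filter fun c => (d, c) ∈ brk S).card := by
  have h0 : S.card + 1 ≤ (univ.erase (0 : F)).card := by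
    rw [card_erase_of_mem (mem_univ _), card_univ]; omega
  cases d with
  | none =>
    refine h0.trans (card_le_card fun c hc => mem_filter.mpr ⟨mem_univ _, ?_⟩)
    exact mem_brk_none.mpr (mem_erase.mp hc).1
  | some m =>
    by_cases hm : m = 0
    · refine h0.trans (card_le_card fun c hc => mem_filter.mpr ⟨mem_univ _, ?_⟩)
      exact mem_brk_some.mpr (Or.inr ⟨(mem_erase.mp hc).1, Or.inl hm⟩)
    have hsq : ∀ y : F, ∃ r, y = r * r := fun y =>
      FiniteField.isSquare_of_char_two (ringChar.eq F 2) y
    choose r hr using hsq
    have hr0 : ∀ D ∈ S, r (m / D) ≠ 0 := by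
      intro D hD e
      have hD0 : D ≠ 0 := fun e => hS (e ▸ hD)
      have := hr (m / D)
      rw [e, mul_zero] at this
      exact div_ne_zero hm hD0 this
    have hc : (insert 0 (S.image fun D => r (m / D))).card = S.card + 1 := by
      rw [card_insert_of_notMem, card_image_of_injective]
      · intro D D' e
        have h1 := hr (m / D)
        have h2 := hr (m / D')
        simp only at e
        rw [e, ← h2, div_eq_mul_inv, div_eq_mul_inv] at h1
        exact inv_inj.mp (mul_left_cancel₀ hm h1)
      · intro h
        obtain ⟨D, hD, e⟩ := mem_image.mp h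
        exact hr0 D hD e
    rw [← hc]
    refine card_le_card fun c hc => mem_filter.mpr ⟨mem_univ _, ?_⟩
    rcases mem_insert.mp hc with rfl | hc
    · exact mem_brk_some.mpr (Or.inl ⟨rfl, hm⟩)
    · obtain ⟨D, hD, rfl⟩ := mem_image.mp hc
      have hD0 : D ≠ 0 := fun e => hS (e ▸ hD)
      refine mem_brk_some.mpr (Or.inr ⟨hr0 D hD, Or.inr ?_⟩)
      rw [sq, ← hr, div_div_cancel₀ hm]
      exact hD

theorem card_good_on_line (S Z : Finset F) (l : Option F × F) (hl : l ∈ brk S) :
    Fintype.card F ≤ (((univ.filter fun P : F × F => P.1 * P.2 ∉ Z)).filter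
      fun P => icpt P l.1 = l.2).card + 2 * Z.card := by
  rw [filter_comm, ← card_line l.1 l.2,
    ← card_filter_add_card_filter_not (fun P : F × F => P.1 * P.2 ∉ Z)]
  refine Nat.add_le_add_left ?_ _
  refine card_le_mul_card_image_of_maps_to (f := fun P : F × F => P.1 * P.2) ?_ 2 ?_
  · intro P hP
    simpa using (mem_filter.mp hP).2
  · intro w _
    by_contra hcon
    obtain ⟨⟨x1, y1⟩, ⟨x2, y2⟩, ⟨x3, y3⟩, h1, h2, h3, h12, h13, h23⟩ :=
      two_lt_card_iff.mp (not_le.mp hcon)
    simp only [mem_filter, mem_univ, true_and] at h1 h2 h3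
    obtain ⟨d, c⟩ := l
    cases d with
    | none =>
      have hc := mem_brk_none.mp hl
      have e1 : x1 = c := h1.1.1
      have e2 : x2 = c := h2.1.1
      apply h12
      have := h1.2.trans h2.2.symm
      rw [e1, e2] at this
      rw [e1, e2, mul_left_cancel₀ hc this]
    | some m =>
      have e1 : y1 - m * x1 = c := h1.1.1
      have e2 : y2 - m * x2 = c := h2.1.1
      have e3 : y3 - m * x3 = c := h3.1.1
      have n12 : x1 - x2 ≠ 0 := fun e => h12 (Prod.ext (sub_eq_zero.mp e) (by
        simp only; linear_combination e1 - e2 + m * e))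
      have n13 : x1 - x3 ≠ 0 := fun e => h13 (Prod.ext (sub_eq_zero.mp e) (by
        simp only; linear_combination e1 - e3 + m * e))
      have n23 : x2 - x3 ≠ 0 := fun e => h23 (Prod.ext (sub_eq_zero.mp e) (by
        simp only; linear_combination e2 - e3 + m * e))
      have a12 : m * (x1 + x2) + c = 0 := by
        apply mul_left_cancel₀ n12
        linear_combination h1.2 - h2.2 - x1 * e1 + x2 * e2
      have a13 : m * (x1 + x3) + c = 0 := by
        apply mul_left_cancel₀ n13
        linear_combination h1.2 - h3.2 - x1 * e1 + x3 * e3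
      have hm : m = 0 := by
        apply mul_left_cancel₀ n23
        linear_combination a12 - a13
      have hc : c = 0 := by rw [hm] at a12; simpa using a12
      rcases mem_brk_some.mp hl with h | h
      · exact h.2 hm
      · exact h.1 hc

end Vale.Agent.P045
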