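import Mathlib.Data.Finset.Card
import Mathlib.Order.Lattice.Nat

/-! Hypergraphs are given by their finite set of edges `E`, an edge being a finite set of
vertices. -/

namespace Vale.Agent.P045

/-- `E` is `r`-partite and `r`-uniform for the partition of the vertices into the parts
`{v | part v = i}`: every edge contains exactly one vertex of each part. -/
def IsPartite {V : Type} {r : ℕ} (part : V → Fin r) (E : Finset (Finset V)) : Prop :=
  ∀ e ∈ E, ∀ i : Fin r, ∃! v : V, v ∈ e ∧ part v = i

/-- `C` is a vertex cover: it meets every edge. -/
def IsCover {V : Type} (E : Finset (Finset V)) (C : Finset V) : Prop :=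
  ∀ e ∈ E, ∃ v ∈ e, v ∈ C

/-- `M` is a matching: a set of pairwise disjoint edges. -/
def IsMatching {V : Type} (E M : Finset (Finset V)) : Prop :=
  M ⊆ E ∧ ∀ e ∈ M, ∀ f ∈ M, e ≠ f → Disjoint e f

/-- The covering number: the least size of a vertex cover. -/
noncomputable def coverNumber {V : Type} (E : Finset (Finset V)) : ℕ :=
  sInf {n : ℕ | ∃ C : Finset V, IsCover E C ∧ C.card = n}

/-- The matching number: the largest size of a matching. -/
noncomputable def matchingNumber {V : Type} (E : Finset (Finset V)) : ℕ :=
  sSup {n : ℕ | ∃ M : Finset (Finset V), IsMatching E M ∧ M.card = n}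

end Vale.Agent.P045
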