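import Mathlib.Algebra.Field.Basic
import Mathlib.Algebra.BigOperators.Ring.Finset
import Mathlib.Algebra.Order.BigOperators.Group.Finset
import Mathlib.Data.Fintype.BigOperators
import Mathlib.Data.Fintype.Option
import Mathlib.Data.Fintype.Prod
import Mathlib.Tactic

/-! The affine plane over a field, lines as pairs (direction, intercept), and a Bruen type
counting lemma for small covers by lines. -/

namespace Vale.Agent.P045

open Finset

variable {F : Type*} [Field F]

/-- intercept of the line through `P` with the given direction -/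
def icpt (P : F × F) : Option F → F
  | none => P.1
  | some m => P.2 - m * P.1

theorem exists_dir (P P' : F × F) : ∃ d, icpt P d = icpt P' d := by
  by_cases h : P.1 = P'.1
  · exact ⟨none, h⟩
  · refine ⟨some ((P.2 - P'.2) / (P.1 - P'.1)), ?_⟩
    have : P.1 - P'.1 ≠ 0 := sub_ne_zero.mpr h
    simp only [icpt]
    field_simp
    ring

theorem eq_of_two_dirs {P P' : F × F} {d d' : Option F} (hd : d ≠ d')
    (h : icpt P d = icpt P' d) (h' : icpt P d' = icpt P' d') : P = P' := by
  obtain ⟨x, y⟩ := P
  obtain ⟨x', y'⟩ := P'
  cases d with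
  | none =>
    cases d' with
    | none => exact absurd rfl hd
    | some m' =>
      simp only [icpt] at h h'
      subst h
      simp only [Prod.mk.injEq, true_and]
      linear_combination h'
  | some m =>
    cases d' with
    | none =>
      simp only [icpt] at h h'
      subst h'
      simp only [Prod.mk.injEq, true_and]
      linear_combination h
    | some m' =>
      simp only [icpt] at h h'
      have hm : m - m' ≠ 0 := sub_ne_zero.mpr (fun e => hd (by rw [e]))
      have hx : x = x' := by
        have : (m - m') * (x - x') = 0 := by linear_combination h' - h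
        rcases mul_eq_zero.mp this with h0 | h0
        · exact absurd h0 hm
        · exact sub_eq_zero.mp h0
      subst hx
      simp only [Prod.mk.injEq, true_and]
      linear_combination h

theorem exists_meet {d d' : Option F} (hd : d ≠ d') (a a' : F) :
    ∃ P : F × F, icpt P d = a ∧ icpt P d' = a' := by
  cases d with
  | none =>
    cases d' with
    | none => exact absurd rfl hd
    | some m' => exact ⟨(a, a' + m' * a), rfl, by simp [icpt]⟩
  | some m =>
    cases d' with
    | none => exact ⟨(a', a + m * a'), by simp [icpt], rfl⟩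
    | some m' =>
      have hm : m - m' ≠ 0 := sub_ne_zero.mpr (fun e => hd (by rw [e]))
      refine ⟨((a' - a) / (m - m'), a + m * ((a' - a) / (m - m'))), by simp [icpt], ?_⟩
      simp only [icpt]
      field_simp
      ring

variable [Fintype F] [DecidableEq F]

theorem card_line (d : Option F) (c : F) :
    (univ.filter fun P : F × F => icpt P d = c).card = Fintype.card F := by
  cases d with
  | none =>
    symm
    rw [← Finset.card_univ]
    refine Finset.card_bij (fun t _ => (c, t)) ?_ ?_ ?_
    · intro t _; exact mem_filter.mpr ⟨mem_univ _, rfl⟩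
    · intro t _ t' _ h; simpa using h
    · rintro ⟨x, y⟩ h
      have h' : x = c := (mem_filter.mp h).2
      exact ⟨y, mem_univ _, by rw [h']⟩
  | some m =>
    symm
    rw [← Finset.card_univ]
    refine Finset.card_bij (fun t _ => (t, c + m * t)) ?_ ?_ ?_
    · intro t _; exact mem_filter.mpr ⟨mem_univ _, by simp [icpt]⟩
    · intro t _ t' _ h; exact (Prod.mk.inj h).1
    · rintro ⟨x, y⟩ h
      have h' : y - m * x = c := (mem_filter.mp h).2
      exact ⟨x, mem_univ _, by rw [← h']; simp⟩

/-- A cover of the affine plane by at most `q + k` lines with `k (k + 2) < q` contains a full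
pencil. -/
theorem bruen (L : Finset (Option F × F)) (k : ℕ) (hL : L.card ≤ Fintype.card F + k)
    (hq : k * (k + 2) < Fintype.card F) (hcov : ∀ P : F × F, ∃ d, (d, icpt P d) ∈ L) :
    (∃ Q : F × F, ∀ d, (d, icpt Q d) ∈ L) ∨ (∃ d, ∀ c, (d, c) ∈ L) := by
  by_contra hcon
  push Not at hcon
  obtain ⟨h1, h2⟩ := hcon
  choose g hg using hcov
  set q := Fintype.card F with hqdef
  let Y : F × F → ℕ := fun Q => (L.filter fun l => icpt Q l.1 = l.2).card
  have hYpos : ∀ Q, 1 ≤ Y Q := fun Q =>
    Finset.card_pos.mpr ⟨(g Q, icpt Q (g Q)), by simp [hg Q]⟩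
  have hA : ∀ Q, Y Q ≤ k + 1 := by
    intro Q
    obtain ⟨d0, hd0⟩ := h1 Q
    have hne : ∀ P, icpt P d0 = icpt Q d0 → g P ≠ d0 := by
      intro P hP e
      apply hd0
      have := hg P
      rwa [e, hP] at this
    have hle : ((univ.filter fun P : F × F => icpt P d0 = icpt Q d0).erase Q).card ≤
        (L.filter fun l => ¬ icpt Q l.1 = l.2).card := by
      refine Finset.card_le_card_of_injOn (fun P => (g P, icpt P (g P))) ?_ ?_
      · intro P hP
        simp only [coe_erase, coe_filter, mem_univ, true_and, Set.mem_sdiff, Set.mem_ofPred_eq,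
          Set.mem_singleton_iff] at hP
        simp only [coe_filter, Set.mem_ofPred_eq]
        refine ⟨hg P, fun e => hP.2 ?_⟩
        exact eq_of_two_dirs (hne P hP.1) e.symm hP.1
      · intro P hP P' hP' e
        simp only [coe_erase, coe_filter, mem_univ, true_and, Set.mem_sdiff, Set.mem_ofPred_eq,
          Set.mem_singleton_iff] at hP hP'
        obtain ⟨e1, e2⟩ := Prod.mk.inj e
        refine eq_of_two_dirs (hne P hP.1) ?_ (hP.1.trans hP'.1.symm)
        rw [e2, e1]
    rw [Finset.card_erase_of_mem (by simp), card_line] at hle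
    have := Finset.card_filter_add_card_filter_not (s := L) (fun l => icpt Q l.1 = l.2)
    have hq1 : 1 ≤ q := by omega
    simp only [Y]
    omega
  have hB : ∀ d0, (L.filter fun l => l.1 = d0).card ≤ k ∧ q ≤ L.card := by
    intro d0
    obtain ⟨c, hc⟩ := h2 d0
    have hne : ∀ P, icpt P d0 = c → g P ≠ d0 := by
      intro P hP e
      apply hc
      have := hg P
      rwa [e, hP] at this
    have hle : (univ.filter fun P : F × F => icpt P d0 = c).card ≤
        (L.filter fun l => ¬ l.1 = d0).card := by
      refine Finset.card_le_card_of_injOn (fun P => (g P, icpt P (g P))) ?_ ?_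
      · intro P hP
        simp only [coe_filter, mem_univ, true_and, Set.mem_ofPred_eq] at hP
        simp only [coe_filter, Set.mem_ofPred_eq]
        exact ⟨hg P, hne P hP⟩
      · intro P hP P' hP' e
        simp only [coe_filter, mem_univ, true_and, Set.mem_ofPred_eq] at hP hP'
        obtain ⟨e1, e2⟩ := Prod.mk.inj e
        refine eq_of_two_dirs (hne P hP) ?_ (hP.trans hP'.symm)
        rw [e2, e1]
    rw [card_line] at hle
    have := Finset.card_filter_add_card_filter_not (s := L) (fun l => l.1 = d0)
    constructor <;> omega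
  have hqL : q ≤ L.card := (hB none).2
  -- double counting of incidences
  have hsum : ∀ w : F × F → ℕ, ∑ P, Y P * w P =
      ∑ l ∈ L, ∑ P ∈ univ.filter (fun P : F × F => icpt P l.1 = l.2), w P := by
    intro w
    simp only [Y, Finset.card_filter, Finset.sum_mul, Finset.sum_filter]
    rw [Finset.sum_comm]
    refine Finset.sum_congr rfl fun l _ => Finset.sum_congr rfl fun P _ => ?_
    split_ifs <;> simp
  have hsum1 : ∑ P, Y P = L.card * q := by
    have := hsum (fun _ => 1)
    simp only [mul_one, Finset.sum_const, smul_eq_mul, card_line] at this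
    exact this
  have hsum2 : ∑ P, (Y P - 1) + q * q = L.card * q := by
    rw [← hsum1]
    have : ∑ P : F × F, Y P = ∑ P : F × F, ((Y P - 1) + 1) :=
      Finset.sum_congr rfl fun P _ => by have := hYpos P; omega
    rw [this, Finset.sum_add_distrib]
    simp [hqdef]
  have hline : ∀ l ∈ L, L.card ≤
      k + ∑ P ∈ univ.filter (fun P : F × F => icpt P l.1 = l.2), (Y P - 1) := by
    intro l hl
    have hsub : (L.filter fun l' => ¬ l'.1 = l.1) ⊆
        (univ.filter (fun P : F × F => icpt P l.1 = l.2)).biUnion
          (fun P => (L.filter fun l' => icpt P l'.1 = l'.2).erase l) := by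
      intro l' hl'
      simp only [mem_filter] at hl'
      obtain ⟨P, hP1, hP2⟩ := exists_meet hl'.2 l'.2 l.2
      simp only [mem_biUnion, mem_filter, mem_univ, true_and, mem_erase]
      exact ⟨P, hP2, fun e => hl'.2 (by rw [e]), hl'.1, hP1⟩
    have h3 := (Finset.card_le_card hsub).trans Finset.card_biUnion_le
    have h4 : ∑ P ∈ univ.filter (fun P : F × F => icpt P l.1 = l.2),
        ((L.filter fun l' => icpt P l'.1 = l'.2).erase l).card =
        ∑ P ∈ univ.filter (fun P : F × F => icpt P l.1 = l.2), (Y P - 1) := by
      refine Finset.sum_congr rfl fun P hP => ?_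
      rw [Finset.card_erase_of_mem]
      simp only [mem_filter, mem_univ, true_and] at hP ⊢
      exact ⟨hl, hP⟩
    have h5 := Finset.card_filter_add_card_filter_not (s := L) (fun l' => l'.1 = l.1)
    have h6 := (hB l.1).1
    omega
  have h7 : L.card * L.card ≤ L.card * k + ∑ P, Y P * (Y P - 1) := by
    rw [hsum]
    have := Finset.sum_le_sum hline
    simpa [Finset.sum_add_distrib] using this
  have h8 : ∑ P, Y P * (Y P - 1) ≤ (k + 1) * ∑ P, (Y P - 1) := by
    rw [Finset.mul_sum]
    exact Finset.sum_le_sum fun P _ => Nat.mul_le_mul_right _ (hA P)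
  have h9 : ∑ P, (Y P - 1) ≤ k * q := by
    have : L.card * q ≤ (q + k) * q := Nat.mul_le_mul_right _ hL
    nlinarith
  obtain ⟨n, hn⟩ := Nat.exists_eq_add_of_le hqL
  have h10 : (k + 1) * ∑ P, (Y P - 1) ≤ (k + 1) * (k * q) := Nat.mul_le_mul_left _ h9
  have h11 : L.card * L.card ≤ L.card * k + (k + 1) * (k * q) := by omega
  rw [hn] at h11
  nlinarith [Nat.zero_le n, Nat.zero_le k, Nat.mul_le_mul_right (q + n) hq.le,
    Nat.mul_lt_mul_of_pos_right hq (show 0 < q + n by omega)]

end Vale.Agent.P045
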