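import Mathlib.Data.Fintype.Sum
import Mathlib.Data.Fintype.Pi
import Mathlib.Data.Fintype.EquivFin
import Vale.Agent.P045.Plane
import Vale.Agent.P045.Defs

/-! The hypergraph built from a set of good points and a set of broken lines. -/

namespace Vale.Agent.P045

open Finset

set_option linter.unusedSectionVars false

variable {F K : Type} [Field F] [Fintype F] [DecidableEq F] [Field K] [Fintype K] [DecidableEq K]

/-- blocking all lines of the affine plane over `K` by directions and points -/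
theorem block_card (T1 : Finset (Option K)) (T2 : Finset (K × K))
    (h : ∀ δ a, δ ∈ T1 ∨ ∃ φ ∈ T2, icpt φ δ = a) :
    Fintype.card K + 1 ≤ T1.card + T2.card := by
  have key : ∀ δ, δ ∉ T1 → T2.image (fun φ => icpt φ δ) = univ := by
    intro δ hδ
    refine Finset.eq_univ_iff_forall.mpr fun a => ?_
    rcases h δ a with h1 | ⟨φ, h1, h2⟩
    · exact absurd h1 hδ
    · exact mem_image.mpr ⟨φ, h1, h2⟩
  by_cases hall : ∀ δ, δ ∈ T1
  · have : T1 = univ := Finset.eq_univ_iff_forall.mpr hall
    rw [this, card_univ, Fintype.card_option]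
    omega
  push Not at hall
  obtain ⟨δ, hδ⟩ := hall
  have h1 : Fintype.card K ≤ T2.card := by
    rw [← card_univ, ← key δ hδ]
    exact card_image_le
  by_contra hcon
  have hT1 : T1 = ∅ := card_eq_zero.mp (by omega)
  have hT2 : T2.card = Fintype.card K := by omega
  have h2 : 1 < T2.card := hT2 ▸ Fintype.one_lt_card
  obtain ⟨φ, hφ, φ', hφ', hne⟩ := one_lt_card.mp h2
  obtain ⟨d, hd⟩ := exists_dir φ φ'
  have h3 : (T2.image (fun φ => icpt φ d)).card = T2.card := by
    rw [key d (by simp [hT1]), card_univ, hT2]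
  exact hne (card_image_iff.mp h3 hφ hφ' hd)

/-- vertices: part index, line, label -/
abbrev Vtx (F K : Type) := (Option F ⊕ K × K) × (Option F × F) × Option (Option K)

/-- data of an edge: base point, direction in the small plane, labelling of broken lines -/
abbrev Elt (F K : Type) := (F × F) × Option K × (K → Option F)

/-- the vertex of an edge in a given part -/
def vert (Br : Finset (Option F × F)) (x : Elt F K) : Option F ⊕ K × K → Vtx F K
  | Sum.inl d => (Sum.inl d, (d, icpt x.1 d), if (d, icpt x.1 d) ∈ Br then some x.2.1 else none)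
  | Sum.inr φ => (Sum.inr φ, (x.2.2 (icpt φ x.2.1), icpt x.1 (x.2.2 (icpt φ x.2.1))), none)

theorem vert_fst (Br : Finset (Option F × F)) (x : Elt F K) (i : Option F ⊕ K × K) :
    (vert Br x i).1 = i := by cases i <;> rfl

theorem vert_on (Br : Finset (Option F × F)) (x : Elt F K) (i : Option F ⊕ K × K) :
    icpt x.1 (vert Br x i).2.1.1 = (vert Br x i).2.1.2 := by cases i <;> rfl

/-- admissible edge data -/
def Good (Pg : Finset (F × F)) (Br : Finset (Option F × F)) (x : Elt F K) : Prop :=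
  x.1 ∈ Pg ∧ Function.Injective x.2.2 ∧ ∀ d, (d, icpt x.1 d) ∈ Br ↔ ∃ a, x.2.2 a = d

open Classical in
/-- the edges -/
noncomputable def edges (K : Type) [Field K] [Fintype K] [DecidableEq K]
    (Pg : Finset (F × F)) (Br : Finset (Option F × F)) : Finset (Finset (Vtx F K)) :=
  (univ.filter fun x : Elt F K => Good Pg Br x).image fun x => univ.image (vert Br x)

theorem mem_edges {Pg : Finset (F × F)} {Br : Finset (Option F × F)} {e : Finset (Vtx F K)} :
    e ∈ edges K Pg Br ↔ ∃ x : Elt F K, Good Pg Br x ∧ univ.image (vert Br x) = e := by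
  simp [edges]

theorem exists_good {Pg : Finset (F × F)} {Br : Finset (Option F × F)} {P : F × F} (hP : P ∈ Pg)
    (hc : (univ.filter fun d => (d, icpt P d) ∈ Br).card = Fintype.card K)
    (δ : Option K) (a : K) (d : Option F) (hd : (d, icpt P d) ∈ Br) :
    ∃ τ : K → Option F, Good Pg Br (P, δ, τ) ∧ τ a = d := by
  let e : K ≃ {d // (d, icpt P d) ∈ Br} :=
    Fintype.equivOfCardEq (by rw [Fintype.card_subtype, hc])
  let e' := (Equiv.swap a (e.symm ⟨d, hd⟩)).trans e
  refine ⟨fun k => (e' k).1, ⟨hP, fun k k' h => e'.injective (Subtype.ext h), fun d' => ?_⟩, ?_⟩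
  · constructor
    · intro h
      exact ⟨e'.symm ⟨d', h⟩, by simp⟩
    · rintro ⟨k, rfl⟩
      exact (e' k).2
  · simp [e']

theorem edges_intersect {Pg : Finset (F × F)} {Br : Finset (Option F × F)}
    (hK : Fintype.card K ≤ Fintype.card F) {x y : Elt F K} (hx : Good Pg Br x)
    (hy : Good Pg Br y) : ∃ i, vert Br x i = vert Br y i := by
  obtain ⟨P, δ, τ⟩ := x
  obtain ⟨P', δ', τ'⟩ := y
  obtain ⟨-, -, hx⟩ := hx
  obtain ⟨-, -, hy⟩ := hy
  simp only at hx hy
  by_cases hP : P = P'
  · subst hP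
    have : ¬ Function.Surjective τ := by
      intro hs
      have := Fintype.card_le_of_surjective τ hs
      rw [Fintype.card_option] at this
      omega
    simp only [Function.Surjective, not_forall] at this
    obtain ⟨d, hd⟩ := this
    have hd' : (d, icpt P d) ∉ Br := fun h => hd ((hx d).mp h)
    exact ⟨Sum.inl d, by simp [vert, hd']⟩
  obtain ⟨d, hd⟩ := exists_dir P P'
  by_cases hB : (d, icpt P d) ∈ Br
  · by_cases hδ : δ = δ'
    · exact ⟨Sum.inl d, by simp [vert, hd, hδ]⟩
    · obtain ⟨a, ha⟩ := (hx d).mp hB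
      obtain ⟨a', ha'⟩ := (hy d).mp (hd ▸ hB)
      obtain ⟨φ, h1, h2⟩ := exists_meet hδ a a'
      exact ⟨Sum.inr φ, by simp [vert, h1, h2, ha, ha', hd]⟩
  · have hB' : (d, icpt P' d) ∉ Br := hd ▸ hB
    exact ⟨Sum.inl d, by simp [vert, hd, hB']⟩

theorem cover_card {Pg : Finset (F × F)} {Br : Finset (Option F × F)}
    (ha : ∀ P ∈ Pg, (univ.filter fun d => (d, icpt P d) ∈ Br).card = Fintype.card K)
    (hc : ∀ l ∈ Br, Fintype.card K ^ 2 + 3 ≤ (Pg.filter fun P => icpt P l.1 = l.2).card)
    (hd : ∀ L : Finset (Option F × F), L.card ≤ Fintype.card F + Fintype.card K ^ 2 →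
      (∀ P ∈ Pg, ∃ d, (d, icpt P d) ∈ L) → ∃ Pen ⊆ L, ∃ Q : F × F,
        (∀ l ∈ Pen, ∀ l' ∈ Pen, l ≠ l' → ∀ P, icpt P l.1 = l.2 → icpt P l'.1 = l'.2 → P = Q) ∧
        Fintype.card F ≤ Pen.card + 1 ∧
        Fintype.card F + 1 + Fintype.card K ^ 2 ≤
          Pen.card + Fintype.card K * (Pen.filter fun l => l ∈ Br).card)
    (C : Finset (Vtx F K)) (hC : IsCover (edges K Pg Br) C) :
    Fintype.card F + 1 + Fintype.card K ^ 2 ≤ C.card := by
  by_contra hcon
  set q := Fintype.card F
  set f := Fintype.card K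
  have hCx : ∀ x : Elt F K, Good Pg Br x → ∃ i, vert Br x i ∈ C := by
    intro x hx
    obtain ⟨v, hv, hvC⟩ := hC _ (mem_edges.mpr ⟨x, hx, rfl⟩)
    obtain ⟨i, -, rfl⟩ := mem_image.mp hv
    exact ⟨i, hvC⟩
  let L : Finset (Option F × F) := C.image fun v => v.2.1
  have hL : L.card ≤ q + f ^ 2 := card_image_le.trans (by omega)
  have hf : 0 < f := Fintype.card_pos
  have hcov : ∀ P ∈ Pg, ∃ d, (d, icpt P d) ∈ L := by
    intro P hP
    have hne : (univ.filter fun d => (d, icpt P d) ∈ Br).Nonempty := by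
      rw [← card_pos, ha P hP]; exact hf
    obtain ⟨d, hd⟩ := hne
    obtain ⟨τ, hτ, -⟩ := exists_good hP (ha P hP) none 0 d (mem_filter.mp hd).2
    obtain ⟨i, hi⟩ := hCx _ hτ
    refine ⟨(vert Br (P, none, τ) i).2.1.1, ?_⟩
    have := vert_on Br (P, none, τ) i
    simp only at this
    rw [this]
    exact mem_image.mpr ⟨_, hi, rfl⟩
  obtain ⟨Pen, hPL, Q, hQ, hP1, hP2⟩ := hd L hL hcov
  have hfib : ∀ l ∈ Pen, (if l ∈ Br then f + 1 else 1) ≤ (C.filter fun v => v.2.1 = l).card := by
    intro l hl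
    split_ifs with hB
    swap
    · obtain ⟨v, hv, hvl⟩ := mem_image.mp (hPL hl)
      exact card_pos.mpr ⟨v, mem_filter.mpr ⟨hv, hvl⟩⟩
    -- a good point of `l` off the other lines
    have hbad : (insert Q ((L \ Pen).biUnion fun l' =>
        univ.filter fun P : F × F => icpt P l.1 = l.2 ∧ icpt P l'.1 = l'.2)).card ≤ f ^ 2 + 2 := by
      refine (card_insert_le _ _).trans ?_
      have h1 : ((L \ Pen).biUnion fun l' =>
          univ.filter fun P : F × F => icpt P l.1 = l.2 ∧ icpt P l'.1 = l'.2).card ≤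
          (L \ Pen).card * 1 := by
        refine card_biUnion_le_card_mul _ _ _ fun l' hl' => card_le_one.mpr ?_
        intro P hP P' hP'
        simp only [mem_filter, mem_univ, true_and] at hP hP'
        have hne : l.1 ≠ l'.1 := by
          intro e
          have : l' = l := Prod.ext e.symm (by rw [← hP.1, ← hP.2, e])
          exact (mem_sdiff.mp hl').2 (this ▸ hl)
        exact eq_of_two_dirs hne (hP.1.trans hP'.1.symm) (hP.2.trans hP'.2.symm)
      have h2 := card_sdiff_add_card_eq_card hPL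
      omega
    obtain ⟨P, hP, hPbad⟩ := exists_mem_notMem_of_card_lt_card
      (lt_of_le_of_lt hbad (lt_of_lt_of_le (by omega) (hc l hB)))
    obtain ⟨hPg, hPl⟩ := mem_filter.mp hP
    have honly : ∀ l' ∈ L, icpt P l'.1 = l'.2 → l' = l := by
      intro l' hl' hP'
      by_contra hne
      apply hPbad
      by_cases hl'P : l' ∈ Pen
      · rw [hQ l' hl'P l hl hne P hP' hPl]
        exact mem_insert_self _ _
      · refine mem_insert_of_mem (mem_biUnion.mpr ⟨l', mem_sdiff.mpr ⟨hl', hl'P⟩, ?_⟩)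
        exact mem_filter.mpr ⟨mem_univ _, hPl, hP'⟩
    obtain ⟨T1, hT1⟩ : ∃ T1 : Finset (Option K),
        ∀ δ, δ ∈ T1 ↔ ((Sum.inl l.1, l, some δ) : Vtx F K) ∈ C := by
      classical
      exact ⟨univ.filter fun δ => ((Sum.inl l.1, l, some δ) : Vtx F K) ∈ C, by simp⟩
    obtain ⟨T2, hT2⟩ : ∃ T2 : Finset (K × K),
        ∀ φ, φ ∈ T2 ↔ ((Sum.inr φ, l, none) : Vtx F K) ∈ C := by
      classical
      exact ⟨univ.filter fun φ => ((Sum.inr φ, l, none) : Vtx F K) ∈ C, by simp⟩
    have hlP : (l.1, icpt P l.1) = l := Prod.ext rfl hPl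
    have hblock : ∀ δ a, δ ∈ T1 ∨ ∃ φ ∈ T2, icpt φ δ = a := by
      intro δ a
      obtain ⟨τ, hτ, hτa⟩ := exists_good hPg (ha P hPg) δ a l.1 (by rw [hlP]; exact hB)
      obtain ⟨i, hi⟩ := hCx _ hτ
      have hil := honly _ (mem_image.mpr ⟨_, hi, rfl⟩) (vert_on Br (P, δ, τ) i)
      cases i with
      | inl d =>
        left
        simp only [vert] at hi hil
        have hdl : d = l.1 := by rw [← hil]
        rw [hil, if_pos hB, hdl] at hi
        exact (hT1 δ).mpr hi
      | inr φ =>
        right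
        simp only [vert] at hi hil
        have hdl : τ (icpt φ δ) = l.1 := by rw [← hil]
        rw [hil] at hi
        exact ⟨φ, (hT2 φ).mpr hi, hτ.2.1 (hdl.trans hτa.symm)⟩
    refine (block_card T1 T2 hblock).trans ?_
    rw [← card_disjSum]
    refine card_le_card_of_injOn
      (Sum.elim (fun δ => (Sum.inl l.1, l, some δ)) (fun φ => (Sum.inr φ, l, none))) ?_ ?_
    · rintro (δ | φ) hx
      · exact mem_coe.mpr (mem_filter.mpr ⟨(hT1 δ).mp (inl_mem_disjSum.mp (mem_coe.mp hx)), rfl⟩)
      · exact mem_coe.mpr (mem_filter.mpr ⟨(hT2 φ).mp (inr_mem_disjSum.mp (mem_coe.mp hx)), rfl⟩)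
    · rintro (δ | φ) - (δ' | φ') - e
      · simp only [Sum.elim_inl, Prod.mk.injEq, Option.some.injEq, true_and] at e
        rw [e]
      · simp only [Sum.elim_inl, Sum.elim_inr, Prod.mk.injEq, reduceCtorEq, false_and] at e
      · simp only [Sum.elim_inl, Sum.elim_inr, Prod.mk.injEq, reduceCtorEq, false_and] at e
      · simp only [Sum.elim_inr, Prod.mk.injEq, Sum.inr.injEq, and_true] at e
        rw [e]
  have hsum := sum_le_sum hfib
  have h1 : ∑ l ∈ Pen, (C.filter fun v => v.2.1 = l).card ≤ C.card := by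
    rw [sum_card_fiberwise_eq_card_filter]
    exact card_filter_le _ _
  have h2 : ∑ l ∈ Pen, (if l ∈ Br then f + 1 else 1) =
      Pen.card + f * (Pen.filter fun l => l ∈ Br).card := by
    rw [card_filter, mul_sum, card_eq_sum_ones, ← sum_add_distrib]
    refine sum_congr rfl fun l _ => ?_
    split_ifs <;> simp [add_comm]
  omega

end Vale.Agent.P045
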