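import Mathlib.FieldTheory.Finite.GaloisField
import Vale.Agent.P045.Broken
import Vale.Agent.P045.Gadget

/-! The counterexample. -/

namespace Vale.Agent.P045

open Finset

variable {F : Type} [Field F] [Fintype F] [DecidableEq F] [CharP F 2]

theorem exists_pencil (S Z : Finset F) (hS : (0 : F) ∉ S) (hSc : S.card = 53)
    (hZ : 32 * Z.card ≤ 7 * Fintype.card F) (hq : 2 ^ 23 ≤ Fintype.card F)
    (hz : ∀ w, 25 ≤ (S.filter fun D => D * w ∈ asIm F).card)
    (L : Finset (Option F × F)) (hL : L.card ≤ Fintype.card F + 53 ^ 2)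
    (hcov : ∀ P ∈ (univ.filter fun P : F × F => P.1 * P.2 ∉ Z), ∃ d, (d, icpt P d) ∈ L) :
    ∃ Pen ⊆ L, ∃ Q : F × F,
        (∀ l ∈ Pen, ∀ l' ∈ Pen, l ≠ l' → ∀ P, icpt P l.1 = l.2 → icpt P l'.1 = l'.2 → P = Q) ∧
        Fintype.card F ≤ Pen.card + 1 ∧
        Fintype.card F + 1 + 53 ^ 2 ≤
          Pen.card + 53 * (Pen.filter fun l => l ∈ brk S).card := by
  have h1 := poly_cover L Z (53 ^ 2) hL (by omega)
    (fun u v _ h => hcov (u, v) (mem_filter.mpr ⟨mem_univ _, h⟩))
  let A : Finset (Option F × F) := {(none, 0), (some 0, 0)}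
  have hA : A.card ≤ 2 := card_le_two
  have hAb : ∀ l ∈ brk S, l ∉ A := by
    intro l hl hlA
    simp only [A, mem_insert, mem_singleton] at hlA
    rcases hlA with rfl | rfl
    · exact mem_brk_none.mp hl rfl
    · simpa using mem_brk_some.mp hl
  have h2 : ∀ P : F × F, ∃ d, (d, icpt P d) ∈ L ∪ A := by
    rintro ⟨u, v⟩
    by_cases huv : u * v = 0
    · rcases mul_eq_zero.mp huv with rfl | rfl
      · exact ⟨none, mem_union_right _ (by simp [A, icpt])⟩
      · exact ⟨some 0, mem_union_right _ (by simp [A, icpt])⟩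
    · obtain ⟨d, hd⟩ := h1 u v huv
      exact ⟨d, mem_union_left _ hd⟩
  have hfil : ∀ P0 : Finset (Option F × F),
      (P0.filter fun l => l ∈ brk S).card ≤ ((P0 \ A).filter fun l => l ∈ brk S).card := by
    intro P0
    refine card_le_card fun l hl => ?_
    obtain ⟨hl1, hl2⟩ := mem_filter.mp hl
    exact mem_filter.mpr ⟨mem_sdiff.mpr ⟨hl1, hAb l hl2⟩, hl2⟩
  rcases bruen (L ∪ A) (53 ^ 2 + 2) ((card_union_le _ _).trans (by omega)) (by omega) h2 with
    ⟨Q, hQ⟩ | ⟨d, hd⟩
  · let P0 : Finset (Option F × F) := univ.image fun d => (d, icpt Q d)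
    have hinj : Function.Injective fun d => (d, icpt Q d) := fun d d' e => (Prod.mk.inj e).1
    have hP0 : P0.card = Fintype.card F + 1 := by
      rw [card_image_of_injective _ hinj, card_univ, Fintype.card_option]
    have hP0b : (P0.filter fun l => l ∈ brk S).card =
        (univ.filter fun d => (d, icpt Q d) ∈ brk S).card := by
      rw [filter_image, card_image_of_injective _ hinj]
    have hle := le_card_sdiff A P0
    refine ⟨P0 \ A, ?_, Q, ?_, by omega, ?_⟩
    · intro l hl
      obtain ⟨hl1, hl2⟩ := mem_sdiff.mp hl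
      obtain ⟨d, -, rfl⟩ := mem_image.mp hl1
      exact (mem_union.mp (hQ d)).resolve_right hl2
    · intro l hl l' hl' hne P hP hP'
      obtain ⟨d, -, rfl⟩ := mem_image.mp (mem_sdiff.mp hl).1
      obtain ⟨d', -, rfl⟩ := mem_image.mp (mem_sdiff.mp hl').1
      exact eq_of_two_dirs (d := d) (d' := d') (fun e => hne (by rw [e])) hP hP'
    · have hf := hfil P0
      obtain ⟨u, v⟩ := Q
      by_cases huv : u * v = 0
      · have := card_brk_nontorus S hS (by omega) u v huv
        omega
      · have hu : u ≠ 0 := left_ne_zero_of_mul huv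
        have hv : v ≠ 0 := right_ne_zero_of_mul huv
        have := card_brk_torus S hS u v hu hv
        have := hz (u * v)
        have hdis : Disjoint P0 A := by
          rw [disjoint_left]
          intro l hl hlA
          obtain ⟨d, -, rfl⟩ := mem_image.mp hl
          simp only [A, mem_insert, mem_singleton, Prod.mk.injEq] at hlA
          rcases hlA with ⟨rfl, h⟩ | ⟨rfl, h⟩
          · exact hu h
          · exact hv (by simpa [icpt] using h)
        rw [sdiff_eq_self_of_disjoint hdis] at hf ⊢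
        omega
  · let P0 : Finset (Option F × F) := univ.image fun c => (d, c)
    have hinj : Function.Injective fun c : F => (d, c) := fun c c' e => (Prod.mk.inj e).2
    have hP0 : P0.card = Fintype.card F := by
      rw [card_image_of_injective _ hinj, card_univ]
    have hP0b : (P0.filter fun l => l ∈ brk S).card =
        (univ.filter fun c => (d, c) ∈ brk S).card := by
      rw [filter_image, card_image_of_injective _ hinj]
    have hle : (P0.erase (d, 0)).card ≤ (P0 \ A).card := by
      refine card_le_card fun l hl => ?_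
      obtain ⟨hl1, hl2⟩ := mem_erase.mp hl
      refine mem_sdiff.mpr ⟨hl2, fun hlA => hl1 ?_⟩
      obtain ⟨c, -, rfl⟩ := mem_image.mp hl2
      simp only [A, mem_insert, mem_singleton, Prod.mk.injEq] at hlA
      rcases hlA with ⟨-, rfl⟩ | ⟨-, rfl⟩ <;> rfl
    have hle' := pred_card_le_card_erase (s := P0) (a := (d, 0))
    refine ⟨P0 \ A, ?_, (0, 0), ?_, by omega, ?_⟩
    · intro l hl
      obtain ⟨hl1, hl2⟩ := mem_sdiff.mp hl
      obtain ⟨c, -, rfl⟩ := mem_image.mp hl1
      exact (mem_union.mp (hd c)).resolve_right hl2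
    · intro l hl l' hl' hne P hP hP'
      obtain ⟨c, -, rfl⟩ := mem_image.mp (mem_sdiff.mp hl).1
      obtain ⟨c', -, rfl⟩ := mem_image.mp (mem_sdiff.mp hl').1
      have e : c = c' := (Eq.symm hP).trans hP'
      exact absurd (by rw [e]) hne
    · have hf := hfil P0
      have := card_brk_dir S hS (by omega) d
      omega

theorem exists_counterexample_field (hq : 2 ^ 23 ≤ Fintype.card F) :
    ∃ (V : Type) (_ : Fintype V) (part : V → Fin (Fintype.card F + 2810))
      (E : Finset (Finset V)), IsPartite part E ∧ E.Nonempty ∧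
      (∀ e ∈ E, ∀ f ∈ E, ∃ v, v ∈ e ∧ v ∈ f) ∧ (∀ e ∈ E, e.card ≤ Fintype.card F + 2810) ∧
      ∀ C, IsCover E C → Fintype.card F + 2810 ≤ C.card := by
  have : Fact (Nat.Prime 53) := ⟨by norm_num⟩
  obtain ⟨S, Z, hS, hZ0, hSc, hZ, hz, hz'⟩ := exists_code (F := F) (by omega)
  let K := ZMod 53
  have hK : Fintype.card K = 53 := ZMod.card 53
  let Pg : Finset (F × F) := univ.filter fun P : F × F => P.1 * P.2 ∉ Z
  have hI : Fintype.card (Option F ⊕ K × K) = Fintype.card F + 2810 := by
    rw [Fintype.card_sum, Fintype.card_option, Fintype.card_prod, hK]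
  let e := Fintype.equivFinOfCardEq hI
  have ha : ∀ P ∈ Pg, (univ.filter fun d => (d, icpt P d) ∈ brk S).card = Fintype.card K := by
    rintro ⟨u, v⟩ hP
    have hP' : u * v ∉ Z := (mem_filter.mp hP).2
    have huv : u * v ≠ 0 := fun e => hP' (e ▸ hZ0)
    rw [card_brk_torus S hS u v (left_ne_zero_of_mul huv) (right_ne_zero_of_mul huv),
      hz' _ hP', hK]
  have hc : ∀ l ∈ brk S,
      Fintype.card K ^ 2 + 3 ≤ (Pg.filter fun P => icpt P l.1 = l.2).card := by
    intro l hl
    have := card_good_on_line S Z l hl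
    rw [hK]
    simp only [Pg]
    omega
  refine ⟨Vtx F K, inferInstance, fun v => e v.1, edges K Pg (brk S), ?_, ?_, ?_, ?_, ?_⟩
  · intro s hs i
    obtain ⟨x, -, rfl⟩ := mem_edges.mp hs
    refine ⟨vert (brk S) x (e.symm i), ⟨mem_image_of_mem _ (mem_univ _), by simp [vert_fst]⟩, ?_⟩
    rintro v ⟨hv, hvi⟩
    obtain ⟨j, -, rfl⟩ := mem_image.mp hv
    simp only [vert_fst] at hvi
    rw [← hvi, Equiv.symm_apply_apply]
  · have hl : ((none, 1) : Option F × F) ∈ brk S := mem_brk_none.mpr one_ne_zero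
    have hne : (Pg.filter fun P => icpt P none = 1).Nonempty := by
      rw [← card_pos]
      have := hc _ hl
      simp only at this
      omega
    obtain ⟨P, hP⟩ := hne
    obtain ⟨hP1, hP2⟩ := mem_filter.mp hP
    obtain ⟨τ, hτ, -⟩ := exists_good hP1 (ha P hP1) none 0 none (by rw [hP2]; exact hl)
    exact ⟨_, mem_edges.mpr ⟨_, hτ, rfl⟩⟩
  · intro s hs t ht
    obtain ⟨x, hx, rfl⟩ := mem_edges.mp hs
    obtain ⟨y, hy, rfl⟩ := mem_edges.mp ht
    obtain ⟨i, hi⟩ := edges_intersect (by omega) hx hy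
    exact ⟨vert (brk S) x i, mem_image_of_mem _ (mem_univ _),
      hi ▸ mem_image_of_mem _ (mem_univ _)⟩
  · intro s hs
    obtain ⟨x, -, rfl⟩ := mem_edges.mp hs
    exact card_image_le.trans (by rw [card_univ, hI])
  · intro C hC
    have := cover_card ha hc (by
      rw [hK]
      exact exists_pencil S Z hS hSc hZ hq hz) C hC
    rw [hK] at this
    omega

theorem numbers {V : Type} (E : Finset (Finset V)) (r : ℕ) (hne : E.Nonempty)
    (hint : ∀ e ∈ E, ∀ f ∈ E, ∃ v, v ∈ e ∧ v ∈ f) (hle : ∀ e ∈ E, e.card ≤ r)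
    (hcov : ∀ C, IsCover E C → r ≤ C.card) : matchingNumber E = 1 ∧ coverNumber E = r := by
  obtain ⟨e, he⟩ := hne
  constructor
  · apply IsGreatest.csSup_eq
    constructor
    · exact ⟨{e}, ⟨by simpa using he, by simp⟩, by simp⟩
    · rintro n ⟨M, ⟨hM1, hM2⟩, rfl⟩
      refine card_le_one.mpr fun a ha b hb => ?_
      by_contra hab
      obtain ⟨v, hv1, hv2⟩ := hint a (hM1 ha) b (hM1 hb)
      exact disjoint_left.mp (hM2 a ha b hb hab) hv1 hv2
  · apply IsLeast.csInf_eq
    have hec : IsCover E e := fun f hf => by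
      obtain ⟨v, hv1, hv2⟩ := hint f hf e he
      exact ⟨v, hv1, hv2⟩
    constructor
    · exact ⟨e, hec, le_antisymm (hle e he) (hcov e hec)⟩
    · rintro n ⟨C, hC, rfl⟩
      exact hcov C hC

theorem exists_counterexample (h : ℕ) (hh : 23 ≤ h) :
    ∃ (V : Type) (_ : Fintype V) (part : V → Fin (2 ^ h + 2810)) (E : Finset (Finset V)),
      IsPartite part E ∧ E.Nonempty ∧ (∀ e ∈ E, ∀ f ∈ E, ∃ v, v ∈ e ∧ v ∈ f) ∧
      matchingNumber E = 1 ∧ coverNumber E = 2 ^ h + 2810 := by
  classical
  have : Fact (Nat.Prime 2) := Nat.fact_prime_two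
  let _ : Fintype (GaloisField 2 h) := Fintype.ofFinite _
  have hc : Fintype.card (GaloisField 2 h) = 2 ^ h := by
    rw [← Nat.card_eq_fintype_card, GaloisField.card 2 h (by omega)]
  have := exists_counterexample_field (F := GaloisField 2 h)
    (hc ▸ Nat.pow_le_pow_right (by norm_num) hh)
  rw [hc] at this
  obtain ⟨V, hV, part, E, h1, h2, h3, h4, h5⟩ := this
  exact ⟨V, hV, part, E, h1, h2, h3, numbers E _ h2 h3 h4 h5⟩

end Vale.Agent.P045
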