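import Mathlib.Combinatorics.Nullstellensatz
import Mathlib.Algebra.MvPolynomial.PDeriv
import Mathlib.Algebra.MvPolynomial.NoZeroDivisors
import Mathlib.FieldTheory.RatFunc.AsPolynomial
import Mathlib.FieldTheory.Finite.Basic
import Vale.Agent.P045.Plane

/-! If few lines and few hyperbolas `u v = z` cover the affine plane over a finite field, then
the hyperbolas are redundant. -/

namespace Vale.Agent.P045

open Finset MvPolynomial

variable {F : Type*} [Field F]

/-- the affine form vanishing on a line -/
noncomputable def lin (l : Option F × F) : MvPolynomial (Fin 2) F :=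
  match l.1 with
  | none => X 0 - C l.2
  | some m => X 1 - C m * X 0 - C l.2

theorem eval_lin (l : Option F × F) (u v : F) :
    eval ![u, v] (lin l) = icpt (u, v) l.1 - l.2 := by
  obtain ⟨d, c⟩ := l
  cases d <;> simp [lin, icpt]

theorem totalDegree_lin (l : Option F × F) : (lin l).totalDegree ≤ 1 := by
  obtain ⟨d, c⟩ := l
  cases d with
  | none =>
    simp only [lin]
    refine (totalDegree_sub_C_le _ _).trans ?_
    simp
  | some m =>
    simp only [lin]
    refine (totalDegree_sub_C_le _ _).trans ((totalDegree_sub _ _).trans ?_)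
    refine max_le (by simp) ((totalDegree_mul _ _).trans ?_)
    simp

theorem exists_poly_hyperbola (A : MvPolynomial (Fin 2) F) (k : ℕ) (hA : A.totalDegree ≤ k)
    (z : F) : ∃ a : Polynomial F, a.natDegree ≤ 2 * k ∧
      ∀ (E : Type _) [Field E] [Algebra F E] (t : E), t ≠ 0 →
        Polynomial.aeval t a = t ^ k * aeval ![algebraMap F E z / t, t] A := by
  refine ⟨∑ m ∈ A.support, Polynomial.monomial (k - m 0 + m 1) (A.coeff m * z ^ (m 0)), ?_, ?_⟩
  · refine Polynomial.natDegree_sum_le_of_forall_le _ _ fun m hm => ?_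
    refine (Polynomial.natDegree_monomial_le _).trans ?_
    have h1 := (le_totalDegree hm).trans hA
    rw [Finsupp.sum_fintype _ _ (by simp)] at h1
    simp only [Fin.sum_univ_two] at h1
    omega
  · intro E _ _ t ht
    conv_rhs => rw [A.as_sum]
    rw [map_sum, map_sum, Finset.mul_sum]
    refine Finset.sum_congr rfl fun m hm => ?_
    have h1 := (le_totalDegree hm).trans hA
    rw [Finsupp.sum_fintype _ _ (by simp)] at h1
    simp only [Fin.sum_univ_two] at h1
    rw [aeval_monomial, Finsupp.prod_fintype _ _ (by simp), Polynomial.aeval_monomial]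
    simp only [Fin.prod_univ_two, Matrix.cons_val_zero, Matrix.cons_val_one, map_mul, map_pow]
    obtain ⟨j, hj⟩ := Nat.exists_eq_add_of_le (show m 0 ≤ k by omega)
    rw [hj, Nat.add_sub_cancel_left, div_pow]
    field_simp
    ring

variable [Fintype F] [DecidableEq F]

omit [DecidableEq F] in
theorem prod_X_sub_C_univ (i : Fin 2) :
    (∏ r : F, (X i - C r) : MvPolynomial (Fin 2) F) = X i ^ Fintype.card F - X i := by
  have h : (∏ r : F, (Polynomial.X - Polynomial.C r) : Polynomial F) =
      Polynomial.X ^ Fintype.card F - Polynomial.X := by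
    have hm : (Polynomial.X ^ Fintype.card F - Polynomial.X : Polynomial F).Monic := by
      apply Polynomial.monic_X_pow_sub
      rw [Polynomial.degree_X]
      exact_mod_cast Fintype.one_lt_card
    have := Polynomial.prod_multiset_X_sub_C_of_monic_of_roots_card_eq hm (by
      rw [FiniteField.roots_X_pow_card_sub_X,
        FiniteField.X_pow_card_sub_X_natDegree_eq F Fintype.one_lt_card]
      rfl)
    rw [FiniteField.roots_X_pow_card_sub_X] at this
    exact this
  have := congrArg (Polynomial.aeval (X i : MvPolynomial (Fin 2) F)) h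
  simpa [map_prod] using this

theorem poly_cover (L : Finset (Option F × F)) (Z : Finset F) (k : ℕ)
    (hL : L.card ≤ Fintype.card F + k) (hZ : 2 * (k + 2 * Z.card + 2) ≤ Fintype.card F)
    (hcov : ∀ u v : F, u * v ≠ 0 → u * v ∉ Z → ∃ d, (d, icpt (u, v) d) ∈ L) :
    ∀ u v : F, u * v ≠ 0 → ∃ d, (d, icpt (u, v) d) ∈ L := by
  intro u v huv
  by_cases hz : u * v ∉ Z
  · exact hcov u v huv hz
  push Not at hz
  set q := Fintype.card F with hq
  set z := u * v with hzdef
  have hu : u ≠ 0 := left_ne_zero_of_mul huv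
  have hv : v ≠ 0 := right_ne_zero_of_mul huv
  let G1 : MvPolynomial (Fin 2) F :=
    X 0 * X 1 * (∏ w ∈ Z.erase z, (X 0 * X 1 - C w)) * ∏ l ∈ L, lin l
  let G : MvPolynomial (Fin 2) F := (X 0 * X 1 - C z) * G1
  have hhyp : ∀ w : F, (X 0 * X 1 - C w : MvPolynomial (Fin 2) F).totalDegree ≤ 2 := by
    intro w
    refine (totalDegree_sub_C_le _ _).trans ((totalDegree_mul _ _).trans ?_)
    simp
  have hGdeg : G.totalDegree ≤ q + (k + 2 * Z.card + 2) := by
    have h1 : (∏ w ∈ Z.erase z, (X 0 * X 1 - C w : MvPolynomial (Fin 2) F)).totalDegree ≤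
        (Z.card - 1) * 2 := by
      refine (totalDegree_finsetProd _ _).trans ?_
      refine (Finset.sum_le_card_nsmul _ _ 2 fun w _ => hhyp w).trans ?_
      rw [Finset.card_erase_of_mem hz, smul_eq_mul]
    have h2 : (∏ l ∈ L, lin l).totalDegree ≤ L.card := by
      refine (totalDegree_finsetProd _ _).trans ?_
      refine (Finset.sum_le_card_nsmul _ _ 1 fun l _ => totalDegree_lin l).trans ?_
      simp
    have h3 : (X 0 * X 1 : MvPolynomial (Fin 2) F).totalDegree ≤ 2 :=
      (totalDegree_mul _ _).trans (by simp)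
    have h4 : G1.totalDegree ≤ 2 + (Z.card - 1) * 2 + L.card :=
      (totalDegree_mul _ _).trans (add_le_add ((totalDegree_mul _ _).trans (add_le_add h3 h1)) h2)
    have h5 : G.totalDegree ≤ 2 + G1.totalDegree :=
      (totalDegree_mul _ _).trans (add_le_add (hhyp z) le_rfl)
    have h6 : 1 ≤ Z.card := Finset.card_pos.mpr ⟨z, hz⟩
    omega
  have hGeval : ∀ x : Fin 2 → F, (∀ i, x i ∈ (univ : Finset F)) → eval x G = 0 := by
    intro x _
    have hx : x = ![x 0, x 1] := by ext i; fin_cases i <;> rfl
    simp only [G, G1, map_mul, map_sub, map_prod, eval_X, eval_C]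
    by_cases h0 : x 0 * x 1 = 0
    · rw [h0]; simp
    by_cases h1 : x 0 * x 1 ∈ Z
    · by_cases h2 : x 0 * x 1 = z
      · rw [h2]; simp
      · rw [Finset.prod_eq_zero (Finset.mem_erase.mpr ⟨h2, h1⟩) (sub_self _)]; simp
    · obtain ⟨d, hd⟩ := hcov (x 0) (x 1) h0 h1
      rw [Finset.prod_eq_zero hd (by rw [hx, eval_lin]; simp)]; simp
  obtain ⟨h, hdeg, hG⟩ := combinatorial_nullstellensatz_exists_linearCombination
    (fun _ : Fin 2 => (univ : Finset F)) (fun _ => univ_nonempty) G hGeval
  rw [Finsupp.linearCombination_apply, Finsupp.sum_fintype _ _ (by simp)] at hG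
  simp only [Fin.sum_univ_two, smul_eq_mul, prod_X_sub_C_univ] at hG hdeg
  have hq1 : 1 < q := Fintype.one_lt_card
  have hXdeg : ∀ i : Fin 2,
      (X i ^ q - X i : MvPolynomial (Fin 2) F).totalDegree = q := by
    intro i
    rw [sub_eq_add_neg, totalDegree_add_eq_left_of_totalDegree_lt] <;> simp [hq1]
  have hdeg' : ∀ i, (h i).totalDegree ≤ k + 2 * Z.card + 2 := by
    intro i
    by_cases hi : h i = 0
    · simp [hi]
    have hne : (X i ^ q - X i : MvPolynomial (Fin 2) F) ≠ 0 := by
      intro e
      have := hXdeg i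
      rw [e] at this
      simp at this
      omega
    have := hdeg i
    rw [totalDegree_mul_of_isDomain hne hi, hXdeg] at this
    omega
  set K := k + 2 * Z.card + 2 with hK
  obtain ⟨a, ha, ha'⟩ := exists_poly_hyperbola (h 0) K (hdeg' 0) z
  obtain ⟨b, hb, hb'⟩ := exists_poly_hyperbola (h 1) K (hdeg' 1) z
  have hab : Polynomial.C z * a = Polynomial.X ^ (q + 1) * b := by
    apply IsFractionRing.injective (Polynomial F) (RatFunc F)
    have hT : (RatFunc.X : RatFunc F) ≠ 0 := RatFunc.X_ne_zero
    set T : RatFunc F := RatFunc.X with hTdef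
    have e1 := ha' (RatFunc F) T hT
    have e2 := hb' (RatFunc F) T hT
    have e3 := congrArg (aeval ![algebraMap F (RatFunc F) z / T, T]) hG
    simp only [G, map_mul, map_add, map_sub, map_pow, aeval_X, aeval_C, Matrix.cons_val_zero,
      Matrix.cons_val_one] at e3
    rw [div_mul_cancel₀ _ hT, sub_self, zero_mul] at e3
    have hzq : algebraMap F (RatFunc F) z ^ q = algebraMap F (RatFunc F) z := by
      rw [← map_pow, FiniteField.pow_card]
    have hTq : T ^ q - T ≠ 0 := by
      have := FiniteField.X_pow_card_sub_X_ne_zero F hq1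
      intro e
      apply this
      apply IsFractionRing.injective (Polynomial F) (RatFunc F)
      simpa [hTdef] using e
    rw [← RatFunc.aeval_X_left_eq_algebraMap, ← RatFunc.aeval_X_left_eq_algebraMap]
    simp only [map_mul, map_pow, Polynomial.aeval_C, Polynomial.aeval_X]
    rw [← hTdef, e1, e2]
    rw [div_pow, hzq] at e3
    generalize aeval ![algebraMap F (RatFunc F) z / T, T] (h 0) = A at e3 ⊢
    generalize aeval ![algebraMap F (RatFunc F) z / T, T] (h 1) = B at e3 ⊢
    generalize algebraMap F (RatFunc F) z = z' at e3 ⊢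
    apply mul_left_cancel₀ hTq
    have hTq' : T ^ q ≠ 0 := pow_ne_zero _ hT
    field_simp at e3
    linear_combination (T ^ K) * e3
  have ha0 : a = 0 := by
    by_contra hne
    have hb0 : b ≠ 0 := by
      rintro rfl
      simp [huv, hne] at hab
    have := congrArg Polynomial.natDegree hab
    rw [Polynomial.natDegree_C_mul huv, Polynomial.natDegree_mul (by simp) hb0] at this
    simp at this
    omega
  have hA0 : eval ![u, v] (h 0) = 0 := by
    have := ha' F v hv
    rw [ha0, map_zero] at this
    have h2 : algebraMap F F z / v = u := by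
      simp [hzdef, hv]
    rw [h2] at this
    have h3 := (mul_eq_zero.mp this.symm).resolve_left (pow_ne_zero _ hv)
    simpa [coe_aeval_eq_eval] using h3
  have hder := congrArg (fun p => eval ![u, v] (pderiv 0 p)) hG
  simp only [G, Derivation.leibniz, map_add, map_sub, map_mul, smul_eq_mul, pderiv_X_self,
    pderiv_C, eval_X, eval_C, map_pow, hA0, Matrix.cons_val_zero, Matrix.cons_val_one,
    Derivation.leibniz_pow] at hder
  have hX1 : pderiv 0 (X 1 : MvPolynomial (Fin 2) F) = 0 := pderiv_X_of_ne (by decide)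
  simp only [hX1, FiniteField.pow_card, ← hzdef, sub_self, zero_mul, mul_zero, map_zero, map_one, zero_add,
    mul_one, sub_zero, add_zero, smul_zero] at hder
  have hG1 : eval ![u, v] G1 = 0 := by
    rcases mul_eq_zero.mp hder with h0 | h0
    · exact h0
    · exact absurd h0 hv
  simp only [G1, map_mul, map_prod, map_sub, eval_X, eval_C, Matrix.cons_val_zero,
    Matrix.cons_val_one, ← hzdef, eval_lin] at hG1
  rcases mul_eq_zero.mp hG1 with h0 | h0
  · rcases mul_eq_zero.mp h0 with h0 | h0
    · exact absurd h0 huv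
    · obtain ⟨w, hw, hw0⟩ := Finset.prod_eq_zero_iff.mp h0
      exact absurd (sub_eq_zero.mp hw0).symm (Finset.mem_erase.mp hw).1
  · obtain ⟨l, hl, hl0⟩ := Finset.prod_eq_zero_iff.mp h0
    refine ⟨l.1, ?_⟩
    rw [sub_eq_zero.mp hl0]
    exact hl

end Vale.Agent.P045
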